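import Vale.Agent.P126.Frame

open Finset

namespace Vale.Agent.P126

lemma exists_enum {α : Type} [DecidableEq α] [Nonempty α] (Λ : Finset α) (s : ℕ)
    (h : Λ.card ≤ s) : ∃ l : Fin s → α, Λ ⊆ univ.image l := by
  classical
  refine ⟨fun k => if hk : k.val < Λ.card then (Λ.equivFin.symm ⟨k.val, hk⟩ : α)
    else Classical.arbitrary α, fun a ha => ?_⟩
  refine mem_image.mpr ⟨⟨(Λ.equivFin ⟨a, ha⟩).val, lt_of_lt_of_le (Fin.is_lt _) h⟩, mem_univ _, ?_⟩
  simp

lemma abs_sub_le_of_floor_eq {K : ℕ} (hK : 0 < K) {a b : ℝ} (ha : -1 ≤ a) (hb : -1 ≤ b)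
    (h : ⌊(a + 1) * K⌋₊ = ⌊(b + 1) * K⌋₊) : |a - b| ≤ 1 / K := by
  have hK' : (0 : ℝ) < K := by exact_mod_cast hK
  have a0 : 0 ≤ (a + 1) * K := mul_nonneg (by linarith) hK'.le
  have b0 : 0 ≤ (b + 1) * K := mul_nonneg (by linarith) hK'.le
  have a1 := Nat.floor_le a0
  have b1 := Nat.floor_le b0
  have a2 := Nat.lt_floor_add_one ((a + 1) * K)
  have b2 := Nat.lt_floor_add_one ((b + 1) * K)
  rw [h] at a1 a2
  rw [le_div_iff₀ hK', ← abs_of_pos hK', ← abs_mul, abs_le]
  constructor <;> nlinarith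

variable {Ω : Type} [Fintype Ω] [DecidableEq Ω]

/-- counting the points that agree with a fixed point on more than half of the coordinates -/
lemma card_ball {V : Type} [Fintype V] [DecidableEq V] (q : ℕ) (hq : 1 ≤ q)
    (B : Finset (V → Fin q)) (y0 : V → Fin q)
    (hB : ∀ y ∈ B, Fintype.card V < 2 * (univ.filter (fun z => y0 z = y z)).card) :
    B.card ≤ 2 ^ Fintype.card V * q ^ (Fintype.card V / 2) := by
  have hsub : B ⊆ (univ.filter (fun D : Finset V => D.card ≤ Fintype.card V / 2)).biUnion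
      (fun D => Fintype.piFinset (fun z => if z ∈ D then univ else {y0 z})) := by
    intro y hy
    rw [mem_biUnion]
    refine ⟨(univ.filter (fun z => y0 z = y z))ᶜ, ?_, ?_⟩
    · have := hB y hy
      simp only [mem_filter, mem_univ, true_and, card_compl]
      omega
    · rw [Fintype.mem_piFinset]
      intro z
      split_ifs with h
      · exact mem_univ _
      · simp only [mem_compl, mem_filter, mem_univ, true_and, not_not] at h
        simp [h]
  refine (card_le_card hsub).trans ((card_biUnion_le_card_mul _ _ (q ^ (Fintype.card V / 2))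
    ?_).trans ?_)
  · intro D hD
    rw [Fintype.card_piFinset]
    have : ∏ z : V, (if z ∈ D then (univ : Finset (Fin q)) else {y0 z}).card = q ^ D.card := by
      rw [prod_congr rfl (g := fun z => if z ∈ D then q else 1)]
      · rw [prod_ite_mem]; simp
      · intro z _
        split_ifs <;> simp
    rw [this]
    exact Nat.pow_le_pow_right hq (mem_filter.mp hD).2
  · gcongr
    exact (card_filter_le _ _).trans (by simp)

/-- The combinatorial core: a `[0,1]`-matrix whose columns need many sup-norm balls of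
radius below `1/2`, while signed measures on the rows have short sketches. -/
theorem core (L b : ℕ) (hL : 1 ≤ L) :
    ∃ (X Y K : Type) (_ : Fintype X) (_ : Fintype Y) (_ : Fintype K) (_ : Nonempty X)
      (A : X → Y → ℝ) (key : (X → ℝ) → K) (β : ℕ),
      (∀ B : Finset Y, (∀ y ∈ B, ∀ y' ∈ B, ∀ x, ¬ (A x y = 1 ∧ A x y' = 0)) → B.card ≤ β) ∧
      (∀ μ μ' : X → ℝ, ∑ x, |μ x| ≤ 1 → ∑ x, |μ' x| ≤ 1 → key μ = key μ' →
        ∀ y, |∑ x, (μ x - μ' x) * A x y| ≤ 5 / L) ∧
      β * Fintype.card K ^ b < Fintype.card Y := by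
  classical
  have hL' : (0 : ℝ) < L := by exact_mod_cast hL
  obtain ⟨c, j, hc0, hj0, hj, hc⟩ := exists_seq L (4 * (b + 1) * (L * rho L 0))
  have hcmono : Monotone c := monotone_nat_of_le_succ fun i => by rw [hc]; omega
  have hjmono : Monotone j := monotone_nat_of_le_succ fun i => by rw [hj]; omega
  set J := 3 * j L + c L with hJdef
  have hJ : ∀ i < L, 3 * j i + c i ≤ J := fun i hi => by
    have := hcmono hi.le; have := hjmono hi.le; omega
  obtain ⟨Ω, _, _, W, hW1, hW2, hW3⟩ := exists_frame L (8 * L) J (by omega) c hcmono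
  set N := 2 ^ Fintype.card Ω with hN
  have hNV : Fintype.card (Finset Ω) = N := Fintype.card_finset
  have hN1 : 1 ≤ N := Nat.one_le_two_pow
  set s := N / (4 * (b + 1)) with hs
  set P := Fintype.card (Finset (Finset Ω) × Finset (Fin s)) with hP
  have hP1 : 1 ≤ P := Fintype.card_pos
  set K := P * L with hK
  have hK0 : 0 < K := by positivity
  set C0 := (2 * K + 1) ^ P with hC0
  set q := 2 ^ N * (N ^ s * C0) ^ b + 1 with hq
  have hq1 : 1 ≤ q := by omega
  haveI : Nonempty (Fin q) := ⟨⟨0, hq1⟩⟩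
  -- the literals attached to a signed measure
  have hex : ∀ μ : Finset (Finset Ω) × (Finset Ω → Fin q) → ℝ, ∃ l : Fin s → Finset Ω × Fin q,
      ∑ x, |μ x| ≤ 1 → ∀ y : Finset Ω → Fin q, ∑ x, |μ x| * (phi L j W x.1 (agree x.2 y) -
        phi L j W x.1 (agreeL (univ.image l) x.2 y)) ≤ 2 / L := by
    intro μ
    by_cases hμ : ∑ x, |μ x| ≤ 1
    swap
    · exact ⟨Classical.arbitrary _, fun h => absurd h hμ⟩
    obtain ⟨Λ, h1, h2⟩ := approx (fun x => |μ x|) (fun x => abs_nonneg _) hμ Prod.fst Prod.snd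
      L J hL c j hj0 hj hc hJ W hW1 hW2 hW3
    have h3 : Λ.card ≤ s := by
      rw [hs, Nat.le_div_iff_mul_le (by omega)]
      have h4 : 4 * (b + 1) * (L * rho L 0) ≤ 2 ^ c 0 := by
        rw [hc0]; exact Nat.lt_two_pow_self.le
      have h5 : Λ.card * (4 * (b + 1)) * (L * rho L 0) ≤ N * (L * rho L 0) := by
        calc Λ.card * (4 * (b + 1)) * (L * rho L 0)
            = Λ.card * (4 * (b + 1) * (L * rho L 0)) := by ring
          _ ≤ Λ.card * 2 ^ c 0 := by gcongr
          _ ≤ _ := by rw [mul_comm N]; exact h1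
      exact Nat.le_of_mul_le_mul_right h5 (Nat.mul_pos hL (rho_pos L 0))
    obtain ⟨l, hl⟩ := exists_enum Λ s h3
    refine ⟨l, fun _ y => le_trans (sum_le_sum fun x _ => ?_) (h2 y)⟩
    have := phi_mono L j W x.1 (agreeL_mono hl x.2 y)
    gcongr
  choose lit hlit using hex
  -- patterns
  set pat : (Fin s → Finset Ω × Fin q) → Finset (Finset Ω) × (Finset Ω → Fin q) →
      Finset (Finset Ω) × Finset (Fin s) :=
    fun l x => (x.1, univ.filter (fun k => x.2 (l k).1 = (l k).2)) with hpat
  set psi : (Fin s → Finset Ω × Fin q) → Finset (Finset Ω) × Finset (Fin s) →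
      (Finset Ω → Fin q) → ℝ :=
    fun l p y => phi L j W p.1 (univ.filter (fun z => ∃ k ∈ p.2, l k = (z, y z))) with hpsi
  have hpp : ∀ l x y, phi L j W x.1 (agreeL (univ.image l) x.2 y) = psi l (pat l x) y := by
    intro l x y
    simp only [hpsi, hpat]
    congr 1
    ext z
    simp only [agreeL, mem_filter, mem_univ, true_and, mem_image]
    constructor
    · rintro ⟨h1, k, h2⟩
      exact ⟨k, by rw [h2], by rw [h2, h1]⟩
    · rintro ⟨k, h1, h2⟩
      rw [h2] at h1
      exact ⟨h1, k, by rw [h2]; simp only at h1; rw [h1]⟩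
  set mass : (Fin s → Finset Ω × Fin q) → (Finset (Finset Ω) × (Finset Ω → Fin q) → ℝ) →
      Finset (Finset Ω) × Finset (Fin s) → ℝ :=
    fun l μ p => ∑ x ∈ univ.filter (fun x => pat l x = p), μ x with hmass
  have hmass_abs : ∀ l μ p, ∑ x, |μ x| ≤ 1 → |mass l μ p| ≤ 1 := by
    intro l μ p hμ
    refine (abs_sum_le_sum_abs _ _).trans (le_trans ?_ hμ)
    exact sum_le_sum_of_subset_of_nonneg (filter_subset _ _) fun _ _ _ => abs_nonneg _
  have hpush : ∀ l μ y, ∑ x, μ x * psi l (pat l x) y = ∑ p, mass l μ p * psi l p y := by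
    intro l μ y
    simp only [hmass]
    rw [← sum_fiberwise (s := univ) (g := pat l)]
    refine sum_congr rfl fun p _ => ?_
    rw [sum_mul]
    refine sum_congr rfl fun x hx => ?_
    rw [(mem_filter.mp hx).2]
  refine ⟨Finset (Finset Ω) × (Finset Ω → Fin q), Finset Ω → Fin q,
    (Fin s → Finset Ω × Fin q) × (Finset (Finset Ω) × Finset (Fin s) → Fin (2 * K + 1)),
    inferInstance, inferInstance, inferInstance, inferInstance,
    fun x y => phi L j W x.1 (agree x.2 y),
    fun μ => (lit μ, fun p => ⟨min ⌊(mass (lit μ) μ p + 1) * K⌋₊ (2 * K), by omega⟩),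
    2 ^ N * q ^ (N / 2), ?_, ?_, ?_⟩
  · intro B hB
    rcases B.eq_empty_or_nonempty with rfl | ⟨y0, hy0⟩
    · simp
    have := card_ball q hq1 B y0 (fun y hy => ?_)
    · rwa [hNV] at this
    by_contra hcon
    rw [hNV, not_lt] at hcon
    refine hB y0 hy0 y hy (agree y0 y, y0) ⟨?_, ?_⟩
    · have : agree y0 y0 = univ := by simp [agree]
      simp only [this]
      exact phi_univ L hL j W _ hcon
    · refine phi_self L J hL j W _ (fun i hi => ?_) (fun i => ?_)
      · rw [hW1 _ _ hi.le]; have := hJ i hi; omega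
      · rcases hW3 (agree y0 y) (agree y0 y) i i with h | h <;> exact h
  · intro μ μ' hμ hμ' hkey y
    simp only [Prod.mk.injEq] at hkey
    obtain ⟨hl, hf⟩ := hkey
    have hfl : ∀ (ν : Finset (Finset Ω) × (Finset Ω → Fin q) → ℝ) l p, ∑ x, |ν x| ≤ 1 →
        min ⌊(mass l ν p + 1) * K⌋₊ (2 * K) = ⌊(mass l ν p + 1) * K⌋₊ := by
      intro ν l p hν
      refine min_eq_left (Nat.floor_le_of_le ?_)
      have := (abs_le.mp (hmass_abs l ν p hν)).2
      push_cast
      gcongr
      linarith
    have hclose : ∀ p, |mass (lit μ) μ p - mass (lit μ) μ' p| ≤ 1 / K := by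
      intro p
      refine abs_sub_le_of_floor_eq hK0 (abs_le.mp (hmass_abs _ _ _ hμ)).1
        (abs_le.mp (hmass_abs _ _ _ hμ')).1 ?_
      have := congrArg Fin.val (congrFun hf p)
      simp only at this
      rw [hfl _ _ _ hμ, hfl _ _ _ hμ', ← hl] at this
      exact this
    have herr : ∀ (ν : Finset (Finset Ω) × (Finset Ω → Fin q) → ℝ), ∑ x, |ν x| ≤ 1 →
        |∑ x, ν x * phi L j W x.1 (agree x.2 y) -
          ∑ p, mass (lit ν) ν p * psi (lit ν) p y| ≤ 2 / L := by
      intro ν hν
      rw [← hpush, ← sum_sub_distrib]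
      refine (abs_sum_le_sum_abs _ _).trans (le_trans (le_of_eq ?_) (hlit ν hν y))
      refine sum_congr rfl fun x _ => ?_
      rw [← mul_sub, abs_mul, ← hpp, abs_of_nonneg (sub_nonneg.mpr
        (phi_mono L j W x.1 (agreeL_subset _ _ _)))]
    have h1 := herr μ hμ
    have h2 := herr μ' hμ'
    rw [← hl] at h2
    have h3 : |∑ p, mass (lit μ) μ p * psi (lit μ) p y -
        ∑ p, mass (lit μ) μ' p * psi (lit μ) p y| ≤ 1 / L := by
      rw [← sum_sub_distrib]
      refine (abs_sum_le_sum_abs _ _).trans ?_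
      calc ∑ p, |mass (lit μ) μ p * psi (lit μ) p y - mass (lit μ) μ' p * psi (lit μ) p y|
          ≤ ∑ _p : Finset (Finset Ω) × Finset (Fin s), (1 : ℝ) / K := by
            refine sum_le_sum fun p _ => ?_
            rw [← sub_mul, abs_mul]
            have e0 : 0 ≤ psi (lit μ) p y := phi_nonneg _ _ _ _ _
            have e1 : psi (lit μ) p y ≤ 1 := phi_le_one _ hL _ _ _ _
            rw [abs_of_nonneg e0]
            have := hclose p
            have := abs_nonneg (mass (lit μ) μ p - mass (lit μ) μ' p)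
            nlinarith
        _ = 1 / L := by
            rw [sum_const, card_univ, ← hP, nsmul_eq_mul, hK]
            have : (0 : ℝ) < P := by exact_mod_cast hP1
            push_cast
            field_simp
    simp_rw [sub_mul]
    rw [sum_sub_distrib]
    have e5 : (5 : ℝ) / L = 2 / L + 2 / L + 1 / L := by ring
    rw [abs_le] at h1 h2 h3 ⊢
    constructor <;> linarith [h1.1, h1.2, h2.1, h2.2, h3.1, h3.2]
  · have e1 : Fintype.card ((Fin s → Finset Ω × Fin q) ×
        (Finset (Finset Ω) × Finset (Fin s) → Fin (2 * K + 1))) = (N * q) ^ s * C0 := by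
      rw [Fintype.card_prod, Fintype.card_fun, Fintype.card_fun, Fintype.card_prod, hNV]
      simp only [Fintype.card_fin]
      rfl
    have e2 : Fintype.card (Finset Ω → Fin q) = q ^ N := by
      rw [Fintype.card_fun, hNV, Fintype.card_fin]
    rw [e1, e2]
    have h4 : s * (4 * (b + 1)) ≤ N := Nat.div_mul_le_self _ _
    have h5 : N / 2 + s * b + 1 ≤ N := by
      have : 4 * (s * b) ≤ N := by nlinarith
      omega
    calc 2 ^ N * q ^ (N / 2) * ((N * q) ^ s * C0) ^ b
        = (2 ^ N * (N ^ s * C0) ^ b) * q ^ (N / 2 + s * b) := by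
          rw [mul_pow N q, pow_add, pow_mul, mul_pow, mul_pow, mul_pow]; ring
      _ < q * q ^ (N / 2 + s * b) := by
          refine Nat.mul_lt_mul_of_pos_right (by omega) (by positivity)
      _ = q ^ (N / 2 + s * b + 1) := by ring
      _ ≤ q ^ N := Nat.pow_le_pow_right hq1 h5

end Vale.Agent.P126
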