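import Mathlib

open Finset

namespace Vale.Agent.P126

variable {Ω : Type} [Fintype Ω] [DecidableEq Ω]

/-- sign of coordinate `i` at the point `Z` of the Boolean cube -/
def sg (Z : Finset Ω) (i : Ω) : ℝ := if i ∈ Z then -1 else 1

/-- Walsh character -/
def chi (A Z : Finset Ω) : ℝ := ∏ i ∈ A, sg Z i

/-- Fourier coefficient of the indicator of `I` -/
noncomputable def coef (I : Finset (Finset Ω)) (A : Finset Ω) : ℝ :=
  (∑ Z ∈ I, chi A Z) / 2 ^ Fintype.card Ω

/-- the subcube of points avoiding `e` -/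
def sub (e : Finset Ω) : Finset (Finset Ω) := (eᶜ).powerset

/-- relative density of `I` in the subcube `sub e`, written through Fourier coefficients -/
noncomputable def dens (I : Finset (Finset Ω)) (e : Finset Ω) : ℝ :=
  ∑ A ∈ e.powerset, coef I A

lemma mem_sub {e Z : Finset Ω} : Z ∈ sub e ↔ Disjoint Z e := by
  unfold sub
  rw [mem_powerset, subset_compl_iff_disjoint_right]

lemma sub_anti {e f : Finset Ω} (h : e ⊆ f) : sub f ⊆ sub e := by
  intro Z hZ
  rw [mem_sub] at hZ ⊢
  exact hZ.mono_right h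

lemma card_sub (e : Finset Ω) : (sub e).card * 2 ^ e.card = 2 ^ Fintype.card Ω := by
  unfold sub
  rw [card_powerset, ← pow_add, card_compl]
  congr 1
  have := card_le_univ e
  omega

lemma sum_chi (e Z : Finset Ω) :
    ∑ A ∈ e.powerset, chi A Z = if Disjoint Z e then (2 : ℝ) ^ e.card else 0 := by
  unfold chi
  rw [← prod_one_add]
  split_ifs with h
  · rw [prod_congr rfl (g := fun _ => (2 : ℝ))]
    · simp
    · intro i hi
      have : i ∉ Z := fun hz => (disjoint_left.mp h) hz hi
      simp [sg, this]; norm_num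
  · rw [not_disjoint_iff] at h
    obtain ⟨i, hz, he⟩ := h
    exact prod_eq_zero he (by simp [sg, hz])

lemma dens_eq (I : Finset (Finset Ω)) (e : Finset Ω) :
    dens I e = ((I.filter (fun Z => Disjoint Z e)).card : ℝ) * 2 ^ e.card / 2 ^ Fintype.card Ω := by
  unfold dens coef
  rw [← sum_div, sum_comm]
  congr 1
  simp_rw [sum_chi]
  rw [← sum_filter]
  simp

lemma dens_of_subset {I : Finset (Finset Ω)} {e : Finset Ω} (h : sub e ⊆ I) : dens I e = 1 := by
  rw [dens_eq]
  have : I.filter (fun Z => Disjoint Z e) = sub e := by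
    ext Z
    simp only [mem_filter, mem_sub]
    exact ⟨fun h => h.2, fun hz => ⟨h (mem_sub.mpr hz), hz⟩⟩
  rw [this, div_eq_one_iff_eq (by positivity)]
  exact_mod_cast card_sub e

lemma dens_empty (I : Finset (Finset Ω)) : dens I ∅ = (I.card : ℝ) / 2 ^ Fintype.card Ω := by
  rw [dens_eq]; simp

lemma sum_chi_mul (Z Z' : Finset Ω) :
    ∑ A : Finset Ω, chi A Z * chi A Z' = if Z = Z' then (2 : ℝ) ^ Fintype.card Ω else 0 := by
  unfold chi
  simp_rw [← prod_mul_distrib]
  rw [← powerset_univ, ← prod_one_add]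
  split_ifs with h
  · subst h
    rw [prod_congr rfl (g := fun _ => (2 : ℝ))]
    · simp
    · intro i _
      unfold sg
      split_ifs <;> norm_num
  · have : ∃ i, ¬ (i ∈ Z ↔ i ∈ Z') := by
      by_contra hc
      push Not at hc
      exact h (Finset.ext hc)
    obtain ⟨i, hi⟩ := this
    refine prod_eq_zero (mem_univ i) ?_
    unfold sg
    by_cases h1 : i ∈ Z <;> by_cases h2 : i ∈ Z' <;> simp_all

lemma bessel (I : Finset (Finset Ω)) : ∑ A : Finset Ω, coef I A ^ 2 ≤ 1 := by
  unfold coef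
  simp_rw [div_pow]
  rw [← sum_div, div_le_one (by positivity)]
  have h1 : ∑ A : Finset Ω, (∑ Z ∈ I, chi A Z) ^ 2 = (I.card : ℝ) * 2 ^ Fintype.card Ω := by
    simp_rw [sq, sum_mul_sum]
    rw [sum_comm]
    simp_rw [sum_comm (s := (univ : Finset (Finset Ω))), sum_chi_mul]
    rw [sum_congr rfl (g := fun _ => (2 : ℝ) ^ Fintype.card Ω)]
    · simp
    · intro Z hZ
      rw [sum_ite_eq]
      simp [hZ]
  rw [h1, sq]
  have h2 : (I.card : ℝ) ≤ 2 ^ Fintype.card Ω := by
    have := card_le_univ I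
    rw [Fintype.card_finset] at this
    exact_mod_cast this
  gcongr

/-- the coordinates touched by a large Fourier coefficient of degree at most `j` -/
noncomputable def reg (I : Finset (Finset Ω)) (j t : ℕ) : Finset Ω :=
  (univ.filter (fun A : Finset Ω => A.card ≤ j ∧ 1 / ((t : ℝ) * 2 ^ j) ≤ |coef I A|)).biUnion id

/-- bound for the size of `reg` -/
def regB (j t : ℕ) : ℕ := j * (t * 2 ^ j) ^ 2

lemma card_reg (I : Finset (Finset Ω)) (j t : ℕ) (ht : 1 ≤ t) : (reg I j t).card ≤ regB j t := by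
  unfold reg regB
  set F := univ.filter (fun A : Finset Ω => A.card ≤ j ∧ 1 / ((t : ℝ) * 2 ^ j) ≤ |coef I A|)
  have hpos : (0 : ℝ) < (t : ℝ) * 2 ^ j := by positivity
  have h1 : F.card ≤ (t * 2 ^ j) ^ 2 := by
    have h2 : (F.card : ℝ) * (1 / ((t : ℝ) * 2 ^ j)) ^ 2 ≤ 1 := by
      calc (F.card : ℝ) * (1 / ((t : ℝ) * 2 ^ j)) ^ 2
          = ∑ _A ∈ F, (1 / ((t : ℝ) * 2 ^ j)) ^ 2 := by simp
        _ ≤ ∑ A ∈ F, coef I A ^ 2 := by
          refine sum_le_sum fun A hA => ?_
          have := (mem_filter.mp hA).2.2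
          rw [← sq_abs (coef I A)]
          gcongr
        _ ≤ ∑ A : Finset Ω, coef I A ^ 2 :=
          sum_le_sum_of_subset_of_nonneg (subset_univ _) (fun _ _ _ => sq_nonneg _)
        _ ≤ 1 := bessel I
    rw [div_pow, one_pow, mul_one_div, div_le_one (by positivity)] at h2
    exact_mod_cast h2
  calc (F.biUnion id).card ≤ ∑ A ∈ F, (id A).card := card_biUnion_le
    _ ≤ ∑ _A ∈ F, j := sum_le_sum fun A hA => (mem_filter.mp hA).2.1
    _ = F.card * j := by simp
    _ ≤ _ := by rw [mul_comm]; gcongr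

lemma dens_le (I : Finset (Finset Ω)) {j t : ℕ} (ht : 1 ≤ t) {e f : Finset Ω} (hef : e ⊆ f)
    (hf : f.card ≤ j) (hd : Disjoint (f \ e) (reg I j t)) : dens I f ≤ dens I e + 1 / t := by
  unfold dens
  have hsub : e.powerset ⊆ f.powerset := powerset_mono.mpr hef
  rw [← sum_sdiff hsub]
  have hpos : (0 : ℝ) < (t : ℝ) * 2 ^ j := by positivity
  have h1 : ∑ A ∈ f.powerset \ e.powerset, coef I A ≤ 1 / t := by
    calc ∑ A ∈ f.powerset \ e.powerset, coef I A
        ≤ ∑ _A ∈ f.powerset \ e.powerset, 1 / ((t : ℝ) * 2 ^ j) := by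
          refine sum_le_sum fun A hA => ?_
          rw [mem_sdiff, mem_powerset, mem_powerset] at hA
          obtain ⟨i, hiA, hie⟩ := not_subset.mp hA.2
          by_contra hc
          push Not at hc
          refine disjoint_left.mp hd (mem_sdiff.mpr ⟨hA.1 hiA, hie⟩) ?_
          unfold reg
          rw [mem_biUnion]
          refine ⟨A, mem_filter.mpr ⟨mem_univ _, (card_le_card hA.1).trans hf, ?_⟩, hiA⟩
          exact hc.le.trans (le_abs_self _)
      _ = ((f.powerset \ e.powerset).card : ℝ) * (1 / ((t : ℝ) * 2 ^ j)) := by simp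
      _ ≤ 2 ^ j * (1 / ((t : ℝ) * 2 ^ j)) := by
          gcongr
          have h2 : (f.powerset \ e.powerset).card ≤ 2 ^ j :=
            (card_le_card sdiff_subset).trans (by
              rw [card_powerset]; exact Nat.pow_le_pow_right (by norm_num) hf)
          exact_mod_cast h2
      _ = 1 / t := by field_simp
  linarith

end Vale.Agent.P126
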