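import Vale.Agent.P126.Greedy

open Finset

namespace Vale.Agent.P126

/-- an explicit antisymmetric choice of a generic element -/
lemma exists_gen (M : ℕ) : ∃ (U : Type) (_ : Fintype U) (_ : DecidableEq U) (g : Finset U → U),
    ∀ R R' : Finset U, R.card ≤ M → R'.card ≤ M → g R ∉ R' ∨ g R' ∉ R := by
  classical
  refine ⟨{p : Fin (M * M + 1) × Finset (Fin (M * M + 1)) // p.2.card ≤ M}, inferInstance,
    inferInstance, ?_⟩
  have hex : ∀ R : Finset {p : Fin (M * M + 1) × Finset (Fin (M * M + 1)) // p.2.card ≤ M},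
      ∃ u : {p : Fin (M * M + 1) × Finset (Fin (M * M + 1)) // p.2.card ≤ M}, R.card ≤ M →
        (∀ r ∈ R, r.1.1 ∈ u.1.2) ∧ ∀ r ∈ R, u.1.1 ∉ r.1.2 := by
    intro R
    by_cases hR : R.card ≤ M
    · have h1 : (R.biUnion (fun r => r.1.2)).card < (univ : Finset (Fin (M * M + 1))).card := by
        have : (R.biUnion (fun r => r.1.2)).card ≤ R.card * M :=
          card_biUnion_le_card_mul _ _ _ fun r _ => r.2
        have h2 : R.card * M ≤ M * M := by gcongr
        simp only [card_univ, Fintype.card_fin]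
        omega
      obtain ⟨β, -, hβ⟩ := exists_mem_notMem_of_card_lt_card h1
      refine ⟨⟨(β, R.image (fun r => r.1.1)), card_image_le.trans hR⟩, fun _ => ⟨?_, ?_⟩⟩
      · intro r hr
        exact mem_image_of_mem _ hr
      · intro r hr h
        exact hβ (mem_biUnion.mpr ⟨r, hr, h⟩)
    · exact ⟨⟨(0, ∅), by simp⟩, fun h => absurd h hR⟩
  choose g hg using hex
  refine ⟨g, fun R R' hR hR' => ?_⟩
  by_contra hc
  push Not at hc
  exact (hg R' hR').2 _ hc.1 ((hg R hR).1 _ hc.2)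

lemma exists_frame (L t J : ℕ) (ht : 1 ≤ t) (c : ℕ → ℕ) (hc : Monotone c) :
    ∃ (Ω : Type) (_ : Fintype Ω) (_ : DecidableEq Ω) (W : Finset (Finset Ω) → ℕ → Finset Ω),
      (∀ I i, i ≤ L → (W I i).card = c i) ∧ (∀ I i, W I i ⊆ W I (i + 1)) ∧
      ∀ I I' i i', Disjoint (W I' i') (reg I J t) ∨ Disjoint (W I i) (reg I' J t) := by
  obtain ⟨U, _, _, g, hg⟩ := exists_gen (regB J t)
  refine ⟨U × Fin (c L), inferInstance, inferInstance, fun I i =>
    {g ((reg I J t).image Prod.fst)} ×ˢ (univ.filter (fun s : Fin (c L) => s.val < c i)),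
    ?_, ?_, ?_⟩
  · intro I i hi
    rw [card_product, card_singleton, one_mul, Fin.card_filter_val_lt]
    exact min_eq_right (hc hi)
  · intro I i
    refine product_subset_product_right ?_
    intro s hs
    simp only [mem_filter, mem_univ, true_and] at hs ⊢
    exact hs.trans_le (hc (Nat.le_succ i))
  · intro I I' i i'
    rcases hg ((reg I' J t).image Prod.fst) ((reg I J t).image Prod.fst)
      (card_image_le.trans (card_reg _ _ _ ht)) (card_image_le.trans (card_reg _ _ _ ht)) with h | h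
    · left
      rw [disjoint_left]
      intro p hp hp'
      rw [mem_product, mem_singleton] at hp
      exact h (hp.1 ▸ mem_image_of_mem _ hp')
    · right
      rw [disjoint_left]
      intro p hp hp'
      rw [mem_product, mem_singleton] at hp
      exact h (hp.1 ▸ mem_image_of_mem _ hp')

/-- number of greedy rounds needed at kernel size `j` -/
noncomputable def rho (L j : ℕ) : ℕ :=
  ⌈(2 : ℝ) ^ regB (3 * j) (8 * L) /
    ((1 / (8 * ((regB (3 * j) (8 * L) : ℝ) + 1))) ^ j * (1 / L) / 4)⌉₊ + 1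

lemma rho_pos (L j : ℕ) : 1 ≤ rho L j := by unfold rho; omega

lemma rho_spec (L j : ℕ) (hL : 1 ≤ L) : (2 : ℝ) ^ regB (3 * j) (8 * L) <
    rho L j * ((1 / (8 * ((regB (3 * j) (8 * L) : ℝ) + 1))) ^ j * (1 / L) / 4) := by
  have hL' : (0 : ℝ) < L := by exact_mod_cast hL
  have hγ : (0 : ℝ) < (1 / (8 * ((regB (3 * j) (8 * L) : ℝ) + 1))) ^ j * (1 / L) / 4 := by
    positivity
  rw [← div_lt_iff₀ hγ]
  unfold rho
  push_cast
  exact lt_of_le_of_lt (Nat.le_ceil _) (lt_add_one _)

lemma exists_seq (L c0 : ℕ) : ∃ c j : ℕ → ℕ, c 0 = c0 ∧ j 0 = 0 ∧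
    (∀ i, j (i + 1) = 3 * j i + c i) ∧ ∀ i, c (i + 1) = c i + rho L (j (i + 1)) := by
  let f : ℕ → ℕ × ℕ := fun n => Nat.rec (c0, 0)
    (fun _ p => (p.1 + rho L (3 * p.2 + p.1), 3 * p.2 + p.1)) n
  exact ⟨fun n => (f n).1, fun n => (f n).2, rfl, rfl, fun _ => rfl, fun _ => rfl⟩

variable {Ω : Type} [Fintype Ω] [DecidableEq Ω]

open Classical in
/-- the entry function: the fraction of levels at which `T` is high -/
noncomputable def phi (L : ℕ) (j : ℕ → ℕ) (W : Finset (Finset Ω) → ℕ → Finset Ω)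
    (I T : Finset (Finset Ω)) : ℝ :=
  (∑ i ∈ range L, if High I (W I i) (j i) (1 / 2 + i * (2 / (8 * L : ℕ))) T then 1 else 0) / L

lemma phi_mono (L : ℕ) (j : ℕ → ℕ) (W : Finset (Finset Ω) → ℕ → Finset Ω)
    (I : Finset (Finset Ω)) {T T' : Finset (Finset Ω)} (h : T ⊆ T') :
    phi L j W I T ≤ phi L j W I T' := by
  unfold phi
  gcongr with i hi
  split_ifs with h1 h2
  · exact le_rfl
  · exact absurd (h1.mono h) h2
  · norm_num
  · exact le_rfl

lemma phi_nonneg (L : ℕ) (j : ℕ → ℕ) (W : Finset (Finset Ω) → ℕ → Finset Ω)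
    (I T : Finset (Finset Ω)) : 0 ≤ phi L j W I T := by
  unfold phi
  refine div_nonneg (sum_nonneg fun _ _ => ?_) (by positivity)
  split_ifs <;> norm_num

lemma phi_le_one (L : ℕ) (hL : 1 ≤ L) (j : ℕ → ℕ) (W : Finset (Finset Ω) → ℕ → Finset Ω)
    (I T : Finset (Finset Ω)) : phi L j W I T ≤ 1 := by
  unfold phi
  have hL' : (0 : ℝ) < L := by exact_mod_cast hL
  rw [div_le_one hL']
  refine le_trans (sum_le_sum (g := fun _ => (1 : ℝ)) fun _ _ => ?_) (by simp)
  split_ifs <;> norm_num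

lemma phi_univ (L : ℕ) (hL : 1 ≤ L) (j : ℕ → ℕ) (W : Finset (Finset Ω) → ℕ → Finset Ω)
    (I : Finset (Finset Ω)) (hI : 2 * I.card ≤ 2 ^ Fintype.card Ω) : phi L j W I univ = 1 := by
  unfold phi
  have hL' : (0 : ℝ) < L := by exact_mod_cast hL
  rw [div_eq_one_iff_eq hL'.ne', sum_congr rfl (g := fun _ => (1 : ℝ))]
  · simp
  · intro i _
    rw [if_pos]
    refine ⟨∅, by simp, ?_, subset_univ _⟩
    rw [dens_empty]
    have h1 : (I.card : ℝ) / 2 ^ Fintype.card Ω ≤ 1 / 2 := by
      rw [div_le_div_iff₀ (by positivity) (by norm_num)]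
      have : (2 : ℝ) * I.card ≤ 2 ^ Fintype.card Ω := by exact_mod_cast hI
      linarith
    have h2 : (0 : ℝ) ≤ i * (2 / (8 * L : ℕ)) := by positivity
    linarith

lemma phi_self (L J : ℕ) (hL : 1 ≤ L) (j : ℕ → ℕ) (W : Finset (Finset Ω) → ℕ → Finset Ω)
    (I : Finset (Finset Ω)) (hJ : ∀ i < L, (W I i).card + j i ≤ J)
    (hd : ∀ i, Disjoint (W I i) (reg I J (8 * L))) : phi L j W I I = 0 := by
  unfold phi
  have hL' : (0 : ℝ) < L := by exact_mod_cast hL
  rw [sum_eq_zero, zero_div]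
  intro i hi
  rw [mem_range] at hi
  rw [if_neg]
  rintro ⟨e, h1, h2, h3⟩
  have h4 := dens_of_subset h3
  have h5 : dens I (W I i ∪ e) ≤ dens I e + 1 / (8 * L : ℕ) := by
    refine dens_le I (j := J) (by omega) subset_union_right ?_ ?_
    · have := card_union_le (W I i) e
      have := hJ i hi
      omega
    · refine (hd i).mono_left ?_
      intro r; simp only [mem_sdiff, mem_union]; tauto
  have h6 : (i : ℝ) * (2 / (8 * L : ℕ)) + 1 / (8 * L : ℕ) ≤ 1 / 4 := by
    have : (i : ℝ) + 1 ≤ L := by exact_mod_cast hi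
    push_cast
    rw [← mul_div_assoc, ← add_div, div_le_div_iff₀ (by positivity) (by norm_num)]
    linarith
  linarith

variable {Q : Type} [DecidableEq Q]

/-- All levels together: few literals approximate every column in weighted mean. -/
lemma approx {X : Type} [Fintype X] (μ : X → ℝ) (hμ : ∀ x, 0 ≤ μ x) (hμ1 : ∑ x, μ x ≤ 1)
    (I : X → Finset (Finset Ω)) (v : X → Finset Ω → Q) (L J : ℕ) (hL : 1 ≤ L) (c j : ℕ → ℕ)
    (hj0 : j 0 = 0) (hj : ∀ i, j (i + 1) = 3 * j i + c i)
    (hc : ∀ i, c (i + 1) = c i + rho L (j (i + 1))) (hJ : ∀ i < L, 3 * j i + c i ≤ J)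
    (W : Finset (Finset Ω) → ℕ → Finset Ω) (hW1 : ∀ I i, i ≤ L → (W I i).card = c i)
    (hW2 : ∀ I i, W I i ⊆ W I (i + 1))
    (hW3 : ∀ I I' i i', Disjoint (W I' i') (reg I J (8 * L)) ∨
      Disjoint (W I i) (reg I' J (8 * L))) :
    ∃ Λ : Finset (Finset Ω × Q), Λ.card * 2 ^ c 0 ≤ L * rho L 0 * 2 ^ Fintype.card Ω ∧
      ∀ y : Finset Ω → Q, ∑ x, μ x * (phi L j W (I x) (agree (v x) y) -
        phi L j W (I x) (agreeL Λ (v x) y)) ≤ 2 / L := by
  classical
  have hL' : (0 : ℝ) < L := by exact_mod_cast hL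
  have hcmono : Monotone c := monotone_nat_of_le_succ fun i => by rw [hc]; omega
  set θ : ℕ → ℝ := fun i => 1 / 2 + i * (2 / (8 * L : ℕ)) with hθ
  have hex : ∀ i, ∃ Λ : Finset (Finset Ω × Q), i < L →
      Λ.card * 2 ^ c 0 ≤ rho L 0 * 2 ^ Fintype.card Ω ∧
      ∀ y : Finset Ω → Q, ∑ x ∈ univ.filter (fun x =>
        High (I x) (W (I x) i) (j i) (θ i) (agree (v x) y) ∧
        ¬ High (I x) (W (I x) (i + 1)) (j (i + 1)) (θ (i + 1)) (agreeL Λ (v x) y)), μ x ≤ 1 / L := by
    intro i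
    by_cases hi : i < L
    swap
    · exact ⟨∅, fun h => absurd h hi⟩
    obtain ⟨Λ, h1, h2⟩ := level μ hμ hμ1 I v (fun x => W (I x) i) (fun x => W (I x) (i + 1))
      (fun x => hW2 _ _) (j i) (c i) J (8 * L) (by omega) (hJ i hi) (fun x => hW1 _ _ hi.le)
      (fun x x' => hW3 _ _ _ _) (θ i) (1 / L) (by positivity) (rho L (j i)) (rho_spec L (j i) hL)
    refine ⟨Λ, fun _ => ⟨?_, fun y => ?_⟩⟩
    · rcases i with _ | i
      · rw [hj0] at h1; exact h1
      · have h3 : c 0 + rho L (j (i + 1)) ≤ c (i + 1) := by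
          rw [hc]; have := hcmono (Nat.zero_le i); omega
        have h4 : 2 ^ c 0 * rho L (j (i + 1)) ≤ 2 ^ c (i + 1) := by
          calc 2 ^ c 0 * rho L (j (i + 1)) ≤ 2 ^ c 0 * 2 ^ rho L (j (i + 1)) := by
                gcongr; exact Nat.lt_two_pow_self.le
            _ = 2 ^ (c 0 + rho L (j (i + 1))) := by rw [pow_add]
            _ ≤ _ := Nat.pow_le_pow_right (by norm_num) h3
        have h5 : Λ.card * 2 ^ c 0 * rho L (j (i + 1)) ≤
            2 ^ Fintype.card Ω * rho L (j (i + 1)) := by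
          calc Λ.card * 2 ^ c 0 * rho L (j (i + 1))
              = Λ.card * (2 ^ c 0 * rho L (j (i + 1))) := by ring
            _ ≤ Λ.card * 2 ^ c (i + 1) := by gcongr
            _ ≤ _ := by rw [mul_comm (2 ^ Fintype.card Ω)]; exact h1
        have h6 := Nat.le_of_mul_le_mul_right h5 (rho_pos L _)
        calc _ ≤ 1 * 2 ^ Fintype.card Ω := by rw [one_mul]; exact h6
          _ ≤ _ := by gcongr; exact rho_pos L 0
    · have e1 : θ (i + 1) = θ i + 2 / ((8 * L : ℕ) : ℝ) := by
        simp only [hθ]; push_cast; ring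
      rw [e1, hj]
      convert h2 y using 3
  choose Λ hΛ using hex
  refine ⟨(range L).biUnion Λ, ?_, fun y => ?_⟩
  · calc ((range L).biUnion Λ).card * 2 ^ c 0 ≤ (∑ i ∈ range L, (Λ i).card) * 2 ^ c 0 := by
          gcongr; exact card_biUnion_le
      _ = ∑ i ∈ range L, (Λ i).card * 2 ^ c 0 := by rw [sum_mul]
      _ ≤ ∑ _i ∈ range L, rho L 0 * 2 ^ Fintype.card Ω :=
          sum_le_sum fun i hi => (hΛ i (mem_range.mp hi)).1
      _ = _ := by simp [mul_assoc]
  · set Λ0 := (range L).biUnion Λ with hΛ0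
    set bad : ℕ → X → Prop := fun i x => High (I x) (W (I x) i) (j i) (θ i) (agree (v x) y) ∧
        ¬ High (I x) (W (I x) (i + 1)) (j (i + 1)) (θ (i + 1)) (agreeL (Λ i) (v x) y) with hbad
    have hpt : ∀ x, phi L j W (I x) (agree (v x) y) - phi L j W (I x) (agreeL Λ0 (v x) y) ≤
        (1 + ∑ i ∈ range L, if bad i x then 1 else 0) / L := by
      intro x
      unfold phi
      rw [← sub_div]
      gcongr
      set a : ℕ → ℝ := fun i =>
        if High (I x) (W (I x) i) (j i) (θ i) (agreeL Λ0 (v x) y) then 1 else 0 with ha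
      have h1 : ∑ i ∈ range L, (if High (I x) (W (I x) i) (j i) (θ i) (agree (v x) y)
          then (1 : ℝ) else 0) ≤ ∑ i ∈ range L, ((if bad i x then 1 else 0) + a (i + 1)) := by
        refine sum_le_sum fun i hi => ?_
        have ha0 : 0 ≤ a (i + 1) := by simp only [ha]; split_ifs <;> norm_num
        split_ifs with h2 h3
        · linarith
        · have h4 : High (I x) (W (I x) (i + 1)) (j (i + 1)) (θ (i + 1)) (agreeL Λ0 (v x) y) := by
            have h5 : High (I x) (W (I x) (i + 1)) (j (i + 1)) (θ (i + 1))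
                (agreeL (Λ i) (v x) y) := by
              by_contra h6
              exact h3 ⟨h2, h6⟩
            exact h5.mono (agreeL_mono (subset_biUnion_of_mem Λ hi) _ _)
          simp only [ha, h4, if_true]; linarith
        · linarith
        · linarith
      have h2 : ∑ i ∈ range L, (a (i + 1) - a i) = a L - a 0 := sum_range_sub a L
      have h3 : a L ≤ 1 := by simp only [ha]; split_ifs <;> norm_num
      have h4 : 0 ≤ a 0 := by simp only [ha]; split_ifs <;> norm_num
      rw [sum_add_distrib] at h1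
      rw [sum_sub_distrib] at h2
      change (∑ i ∈ range L, (if High (I x) (W (I x) i) (j i) (θ i) (agree (v x) y)
          then (1 : ℝ) else 0)) - ∑ i ∈ range L, a i ≤ _
      linarith
    calc ∑ x, μ x * (phi L j W (I x) (agree (v x) y) - phi L j W (I x) (agreeL Λ0 (v x) y))
        ≤ ∑ x, μ x * ((1 + ∑ i ∈ range L, if bad i x then 1 else 0) / L) :=
          sum_le_sum fun x _ => mul_le_mul_of_nonneg_left (hpt x) (hμ x)
      _ = (∑ x, μ x + ∑ i ∈ range L, ∑ x ∈ univ.filter (bad i), μ x) / L := by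
          simp_rw [← mul_div_assoc, ← sum_div, mul_add, mul_one, sum_add_distrib, mul_sum,
            sum_filter, mul_ite, mul_one, mul_zero]
          rw [sum_comm]
      _ ≤ (1 + ∑ _i ∈ range L, (1 : ℝ) / L) / L := by
          gcongr with i hi
          exact (hΛ i (mem_range.mp hi)).2 y
      _ = 2 / L := by
          rw [sum_const, card_range, nsmul_eq_mul, mul_one_div_cancel hL'.ne']; norm_num

end Vale.Agent.P126
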