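import Vale.Agent.P126.Fourier

open Finset

namespace Vale.Agent.P126

variable {Ω : Type} [Fintype Ω] [DecidableEq Ω]

/-- A popular acceptor exists: spread-kernel plus tournament averaging. -/
lemma exists_accept {X : Type} [DecidableEq X] (B : Finset X) (μ : X → ℝ) (hμ : ∀ x, 0 ≤ μ x)
    (e R : X → Finset Ω) (j M : ℕ) (he : ∀ x ∈ B, (e x).card ≤ j) (hR : ∀ x, (R x).card ≤ M)
    (P : X → X → Prop) [DecidableRel P] (hP : ∀ x x', P x x' ∨ P x' x) (ε : ℝ) (hε : 0 < ε)
    (hB : ε ≤ ∑ x ∈ B, μ x) :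
    ∃ x' ∈ B, (1 / (8 * ((M : ℝ) + 1))) ^ j * ε / 4 ≤
      ∑ x ∈ B.filter (fun x => P x x' ∧ Disjoint (e x' \ e x) (R x)), μ x := by
  set θ : ℝ := 1 / (8 * ((M : ℝ) + 1)) with hθ
  have hθ0 : 0 < θ := by positivity
  have hM0 : (0 : ℝ) ≤ M := by positivity
  have hθ1 : θ ≤ 1 := by
    rw [hθ, div_le_one (by positivity)]; linarith
  have hMθ : (M : ℝ) * θ ≤ 1 / 8 := by
    rw [hθ, mul_one_div, div_le_div_iff₀ (by positivity) (by norm_num)]; linarith
  set w : Finset Ω → ℝ := fun κ => ∑ x ∈ B.filter (fun x => κ ⊆ e x), μ x with hw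
  obtain ⟨κ, hκ⟩ := Finite.exists_max (fun κ : Finset Ω => w κ / θ ^ κ.card)
  have hw0 : w ∅ = ∑ x ∈ B, μ x := by simp [hw]
  have h1 : θ ^ κ.card * ε ≤ w κ := by
    have := hκ ∅
    simp only [card_empty, pow_zero, div_one] at this
    rw [le_div_iff₀ (by positivity)] at this
    have h2 : ε * θ ^ κ.card ≤ w ∅ * θ ^ κ.card := by
      rw [hw0]; gcongr
    linarith
  have hwpos : 0 < w κ := lt_of_lt_of_le (by positivity) h1
  set B' := B.filter (fun x => κ ⊆ e x) with hB'
  have hwB' : w κ = ∑ x ∈ B', μ x := rfl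
  have hne : B'.Nonempty := by
    by_contra hc
    rw [not_nonempty_iff_eq_empty] at hc
    rw [hwB', hc] at hwpos
    simp at hwpos
  have hκj : κ.card ≤ j := by
    obtain ⟨x, hx⟩ := hne
    rw [hB', mem_filter] at hx
    exact (card_le_card hx.2).trans (he x hx.1)
  have h2 : θ ^ j * ε ≤ w κ :=
    le_trans (mul_le_mul_of_nonneg_right (pow_le_pow_of_le_one hθ0.le hθ1 hκj) hε.le) h1
  have hins : ∀ r ∉ κ, ∑ x' ∈ B', μ x' * (if r ∈ e x' then 1 else 0) ≤ θ * w κ := by
    intro r hr
    have h3 := hκ (insert r κ)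
    rw [card_insert_of_notMem hr, pow_succ, div_le_div_iff₀ (by positivity) (by positivity)] at h3
    have h4 : w (insert r κ) ≤ θ * w κ := by
      have hp : 0 < θ ^ κ.card := by positivity
      nlinarith
    refine le_trans (le_of_eq ?_) h4
    simp only [hw, hB', mul_ite, mul_one, mul_zero]
    rw [← sum_filter, filter_filter]
    refine sum_congr ?_ fun _ _ => rfl
    ext x
    simp only [mem_filter, insert_subset_iff]
    tauto
  by_contra hc
  push Not at hc
  -- upper bound for the double sum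
  have hup : ∑ x' ∈ B', μ x' * ∑ x ∈ B', μ x *
      (if P x x' ∧ Disjoint (e x' \ e x) (R x) then 1 else 0) ≤ w κ * (w κ / 4) := by
    rw [hwB', sum_mul]
    refine sum_le_sum fun x' hx' => mul_le_mul_of_nonneg_left ?_ (hμ x')
    have h5 := hc x' (mem_filter.mp hx').1
    rw [← hwB']
    refine le_trans ?_ (le_trans h5.le (by linarith))
    simp only [mul_ite, mul_one, mul_zero]
    rw [← sum_filter]
    refine sum_le_sum_of_subset_of_nonneg ?_ fun x _ _ => hμ x
    exact filter_subset_filter _ (filter_subset _ _)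
  -- lower bound
  have hind : ∀ x ∈ B', ∀ x', (if P x x' then (1 : ℝ) else 0) -
      ∑ r ∈ R x \ κ, (if r ∈ e x' then 1 else 0) ≤
      (if P x x' ∧ Disjoint (e x' \ e x) (R x) then 1 else 0) := by
    intro x hx x'
    have hs0 : (0 : ℝ) ≤ ∑ r ∈ R x \ κ, (if r ∈ e x' then 1 else 0) :=
      sum_nonneg fun _ _ => by split_ifs <;> norm_num
    by_cases hp : P x x'
    · by_cases hd : Disjoint (e x' \ e x) (R x)
      · simp only [hp, hd, and_self, if_true]; linarith
      · simp only [hp, hd, and_false, if_true, if_false]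
        rw [not_disjoint_iff] at hd
        obtain ⟨r, hr1, hr2⟩ := hd
        rw [mem_sdiff] at hr1
        have hrκ : r ∉ κ := fun h => hr1.2 ((mem_filter.mp hx).2 h)
        have : (if r ∈ e x' then (1 : ℝ) else 0) ≤ ∑ r ∈ R x \ κ, (if r ∈ e x' then 1 else 0) :=
          single_le_sum (f := fun r => if r ∈ e x' then (1 : ℝ) else 0)
            (fun _ _ => by split_ifs <;> norm_num) (mem_sdiff.mpr ⟨hr2, hrκ⟩)
        rw [if_pos hr1.1] at this
        linarith
    · simp only [hp, false_and, if_false]; linarith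
  have hA : w κ * w κ / 2 ≤ ∑ x' ∈ B', μ x' * ∑ x ∈ B', μ x * (if P x x' then 1 else 0) := by
    have e1 : ∑ x' ∈ B', μ x' * ∑ x ∈ B', μ x * (if P x x' then 1 else 0) =
        ∑ x' ∈ B', μ x' * ∑ x ∈ B', μ x * (if P x' x then 1 else 0) := by
      simp_rw [mul_sum]
      rw [sum_comm]
      refine sum_congr rfl fun x _ => sum_congr rfl fun x' _ => by ring
    have e2 : w κ * w κ ≤ ∑ x' ∈ B', μ x' * ∑ x ∈ B', μ x * (if P x x' then 1 else 0) +
        ∑ x' ∈ B', μ x' * ∑ x ∈ B', μ x * (if P x' x then 1 else 0) := by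
      rw [hwB', sum_mul, ← sum_add_distrib]
      refine sum_le_sum fun x' _ => ?_
      rw [← mul_add, ← sum_add_distrib]
      refine mul_le_mul_of_nonneg_left (sum_le_sum fun x _ => ?_) (hμ x')
      rw [← mul_add]
      have := hμ x
      rcases hP x x' with h | h
      · rw [if_pos h]; split_ifs <;> linarith
      · rw [if_pos h]; split_ifs <;> linarith
    linarith
  have hC : ∑ x' ∈ B', μ x' * ∑ x ∈ B', μ x * ∑ r ∈ R x \ κ, (if r ∈ e x' then 1 else 0) ≤
      w κ * (w κ / 8) := by
    have e1 : ∑ x' ∈ B', μ x' * ∑ x ∈ B', μ x * ∑ r ∈ R x \ κ, (if r ∈ e x' then (1 : ℝ) else 0) =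
        ∑ x ∈ B', μ x * ∑ r ∈ R x \ κ, ∑ x' ∈ B', μ x' * (if r ∈ e x' then 1 else 0) := by
      simp_rw [mul_sum]
      rw [sum_comm]
      refine sum_congr rfl fun x _ => ?_
      rw [sum_comm]
      refine sum_congr rfl fun r _ => sum_congr rfl fun x' _ => by ring
    rw [e1, hwB', sum_mul]
    refine sum_le_sum fun x _ => mul_le_mul_of_nonneg_left ?_ (hμ x)
    rw [← hwB']
    calc ∑ r ∈ R x \ κ, ∑ x' ∈ B', μ x' * (if r ∈ e x' then (1 : ℝ) else 0)
        ≤ ∑ _r ∈ R x \ κ, θ * w κ := sum_le_sum fun r hr => hins r (mem_sdiff.mp hr).2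
      _ = ((R x \ κ).card : ℝ) * (θ * w κ) := by simp
      _ ≤ M * (θ * w κ) := by
        gcongr
        exact_mod_cast (card_le_card sdiff_subset).trans (hR x)
      _ ≤ w κ / 8 := by nlinarith
  have hlow : ∑ x' ∈ B', μ x' * ∑ x ∈ B', μ x * (if P x x' then 1 else 0) -
      ∑ x' ∈ B', μ x' * ∑ x ∈ B', μ x * ∑ r ∈ R x \ κ, (if r ∈ e x' then 1 else 0) ≤
      ∑ x' ∈ B', μ x' * ∑ x ∈ B', μ x *
      (if P x x' ∧ Disjoint (e x' \ e x) (R x) then 1 else 0) := by
    rw [← sum_sub_distrib]
    refine sum_le_sum fun x' _ => ?_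
    rw [← mul_sub, ← sum_sub_distrib]
    refine mul_le_mul_of_nonneg_left (sum_le_sum fun x hx => ?_) (hμ x')
    rw [← mul_sub]
    exact mul_le_mul_of_nonneg_left (hind x hx x') (hμ x)
  nlinarith

/-- `T` contains a subcube `sub (W ∪ e)` with `e` small and of small density -/
def High (I : Finset (Finset Ω)) (W : Finset Ω) (j : ℕ) (θ : ℝ) (T : Finset (Finset Ω)) : Prop :=
  ∃ e : Finset Ω, e.card ≤ j ∧ dens I e ≤ θ ∧ sub (W ∪ e) ⊆ T

lemma High.mono {I : Finset (Finset Ω)} {W : Finset Ω} {j : ℕ} {θ : ℝ} {T T' : Finset (Finset Ω)}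
    (h : High I W j θ T) (hT : T ⊆ T') : High I W j θ T' := by
  obtain ⟨e, h1, h2, h3⟩ := h
  exact ⟨e, h1, h2, h3.trans hT⟩

variable {Q : Type} [DecidableEq Q]

/-- agreement set -/
def agree (v y : Finset Ω → Q) : Finset (Finset Ω) := univ.filter (fun z => v z = y z)

/-- agreement set restricted to a set of literals -/
def agreeL (Λ : Finset (Finset Ω × Q)) (v y : Finset Ω → Q) : Finset (Finset Ω) :=
  univ.filter (fun z => v z = y z ∧ (z, v z) ∈ Λ)

lemma agreeL_subset (Λ : Finset (Finset Ω × Q)) (v y : Finset Ω → Q) :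
    agreeL Λ v y ⊆ agree v y := by
  intro z hz
  simp only [agreeL, agree, mem_filter, mem_univ, true_and] at hz ⊢
  exact hz.1

lemma agreeL_mono {Λ Λ' : Finset (Finset Ω × Q)} (h : Λ ⊆ Λ') (v y : Finset Ω → Q) :
    agreeL Λ v y ⊆ agreeL Λ' v y := by
  intro z hz
  simp only [agreeL, mem_filter, mem_univ, true_and] at hz ⊢
  exact ⟨hz.1, h hz.2⟩

open Classical in
/-- One level of the approximation: few literals preserve highness up to one level. -/
lemma level {X : Type} [Fintype X] (μ : X → ℝ) (hμ : ∀ x, 0 ≤ μ x) (hμ1 : ∑ x, μ x ≤ 1)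
    (I : X → Finset (Finset Ω)) (v : X → Finset Ω → Q) (W W' : X → Finset Ω)
    (hWW : ∀ x, W x ⊆ W' x) (j c J t : ℕ) (ht : 1 ≤ t) (hJ : 3 * j + c ≤ J)
    (hWc : ∀ x, (W x).card = c)
    (hanti : ∀ x x', Disjoint (W x') (reg (I x) J t) ∨ Disjoint (W x) (reg (I x') J t))
    (θ ε : ℝ) (hε : 0 < ε) (ρ : ℕ)
    (hρ : (2 : ℝ) ^ regB (3 * j) t <
      ρ * ((1 / (8 * ((regB (3 * j) t : ℝ) + 1))) ^ j * ε / 4)) :
    ∃ Λ : Finset (Finset Ω × Q), Λ.card * 2 ^ c ≤ ρ * 2 ^ Fintype.card Ω ∧
      ∀ y : Finset Ω → Q, ∑ x ∈ univ.filter (fun x => High (I x) (W x) j θ (agree (v x) y) ∧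
        ¬ High (I x) (W' x) (3 * j + c) (θ + 2 / t) (agreeL Λ (v x) y)), μ x ≤ ε := by
  set M := regB (3 * j) t with hM
  set γ : ℝ := (1 / (8 * ((M : ℝ) + 1))) ^ j * ε / 4 with hγ
  set R : X → Finset Ω := fun x => reg (I x) (3 * j) t with hR
  have hRM : ∀ x, (R x).card ≤ M := fun x => card_reg _ _ _ ht
  set Rec : Finset (Finset Ω × Q) → X → Finset (Finset Ω) := fun Λ x =>
    (R x).powerset.filter (fun r => ∃ A V : Finset Ω, A.card ≤ 2 * j ∧ A ∩ R x = r ∧
      V.card ≤ c ∧ Disjoint V (reg (I x) J t) ∧ ∀ z ∈ sub (W x ∪ A ∪ V), (z, v x z) ∈ Λ)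
    with hRec
  have hRecmono : ∀ Λ Λ' x, Λ ⊆ Λ' → Rec Λ x ⊆ Rec Λ' x := by
    intro Λ Λ' x h r hr
    simp only [hRec, mem_filter] at hr ⊢
    obtain ⟨h0, A, V, h1, h2, h3, h4, h5⟩ := hr
    exact ⟨h0, A, V, h1, h2, h3, h4, fun z hz => h (h5 z hz)⟩
  set Φ : Finset (Finset Ω × Q) → ℝ := fun Λ => ∑ x, μ x * (Rec Λ x).card with hΦ
  have hΦle : ∀ Λ, Φ Λ ≤ 2 ^ M := by
    intro Λ
    calc Φ Λ ≤ ∑ x, μ x * 2 ^ M := by
          refine sum_le_sum fun x _ => mul_le_mul_of_nonneg_left ?_ (hμ x)
          have : (Rec Λ x).card ≤ 2 ^ M :=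
            (card_filter_le _ _).trans (by
              rw [card_powerset]; exact Nat.pow_le_pow_right (by norm_num) (hRM x))
          exact_mod_cast this
      _ = (∑ x, μ x) * 2 ^ M := by rw [sum_mul]
      _ ≤ 1 * 2 ^ M := by gcongr
      _ = 2 ^ M := one_mul _
  set Good : Finset (Finset Ω × Q) → Prop := fun Λ =>
    ∀ y : Finset Ω → Q, ∑ x ∈ univ.filter (fun x => High (I x) (W x) j θ (agree (v x) y) ∧
        ¬ High (I x) (W' x) (3 * j + c) (θ + 2 / t) (agreeL Λ (v x) y)), μ x ≤ ε with hGood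
  have step : ∀ Λ, ¬ Good Λ → ∃ Λ' : Finset (Finset Ω × Q),
      Λ'.card * 2 ^ c ≤ Λ.card * 2 ^ c + 2 ^ Fintype.card Ω ∧ Φ Λ + γ ≤ Φ Λ' := by
    intro Λ hΛ
    simp only [hGood, not_forall, not_le] at hΛ
    obtain ⟨y, hy⟩ := hΛ
    set B := univ.filter (fun x => High (I x) (W x) j θ (agree (v x) y) ∧
        ¬ High (I x) (W' x) (3 * j + c) (θ + 2 / t) (agreeL Λ (v x) y)) with hB
    have hex : ∀ x, ∃ e : Finset Ω, x ∈ B →
        e.card ≤ j ∧ dens (I x) e ≤ θ ∧ sub (W x ∪ e) ⊆ agree (v x) y := by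
      intro x
      by_cases hx : x ∈ B
      · obtain ⟨e, he⟩ := (mem_filter.mp hx).2.1
        exact ⟨e, fun _ => he⟩
      · exact ⟨∅, fun h => absurd h hx⟩
    choose e he using hex
    obtain ⟨x', hx', hacc⟩ := exists_accept B μ hμ e R j M (fun x hx => (he x hx).1) hRM
      (fun x x' => Disjoint (W x') (reg (I x) J t)) hanti ε hε hy.le
    set Λ' := Λ ∪ (sub (W x')).image (fun z => (z, v x' z)) with hΛ'
    refine ⟨Λ', ?_, ?_⟩
    · have h1 : Λ'.card ≤ Λ.card + (sub (W x')).card :=
        (card_union_le _ _).trans (by gcongr; exact card_image_le)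
      have h2 := card_sub (W x')
      rw [hWc] at h2
      calc Λ'.card * 2 ^ c ≤ (Λ.card + (sub (W x')).card) * 2 ^ c := by gcongr
        _ = _ := by rw [add_mul, h2]
    · set Acc := B.filter (fun x => Disjoint (W x') (reg (I x) J t) ∧
        Disjoint (e x' \ e x) (R x)) with hAcc
      have hnew : ∀ x ∈ Acc, (Rec Λ x).card + 1 ≤ (Rec Λ' x).card := by
        intro x hx
        obtain ⟨hxB, hd1, hd2⟩ := mem_filter.mp hx
        obtain ⟨hc1, hc2, hc3⟩ := he x hxB
        obtain ⟨hc1', -, hc3'⟩ := he x' hx'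
        have hin : e x ∩ R x ∈ Rec Λ' x := by
          simp only [hRec, mem_filter, mem_powerset]
          refine ⟨inter_subset_right, e x ∪ e x', W x', ?_, ?_, (hWc x').le, hd1, ?_⟩
          · have := card_union_le (e x) (e x'); omega
          · ext r
            simp only [mem_inter, mem_union]
            constructor
            · rintro ⟨h | h, hr⟩
              · exact ⟨h, hr⟩
              · by_contra hn
                exact disjoint_left.mp hd2 (mem_sdiff.mpr ⟨h, fun h' => hn ⟨h', hr⟩⟩) hr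
            · rintro ⟨h, hr⟩
              exact ⟨Or.inl h, hr⟩
          · intro z hz
            have z1 : z ∈ agree (v x) y := hc3 (sub_anti (by
              intro r; simp only [mem_union]; tauto) hz)
            have z2 : z ∈ agree (v x') y := hc3' (sub_anti (by
              intro r; simp only [mem_union]; tauto) hz)
            have z3 : z ∈ sub (W x') := sub_anti (by
              intro r; simp only [mem_union]; tauto) hz
            simp only [agree, mem_filter, mem_univ, true_and] at z1 z2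
            rw [hΛ', mem_union]
            right
            exact mem_image.mpr ⟨z, z3, by rw [z1, z2]⟩
        have hnot : e x ∩ R x ∉ Rec Λ x := by
          intro hmem
          simp only [hRec, mem_filter, mem_powerset] at hmem
          obtain ⟨-, A, V, h1, h2, h3, h4, h5⟩ := hmem
          refine (mem_filter.mp hxB).2.2 ⟨e x ∪ A ∪ V, ?_, ?_, ?_⟩
          · have := card_union_le (e x ∪ A) V
            have := card_union_le (e x) A
            omega
          · have d1 : dens (I x) (e x ∪ A ∪ V) ≤ dens (I x) (e x ∪ A) + 1 / t := by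
              refine dens_le (I x) (j := J) ht subset_union_left ?_ ?_
              · have := card_union_le (e x ∪ A) V
                have := card_union_le (e x) A
                omega
              · refine h4.mono_left ?_
                intro r; simp only [mem_sdiff, mem_union]; tauto
            have d2 : dens (I x) (e x ∪ A) ≤ dens (I x) (e x) + 1 / t := by
              refine dens_le (I x) (j := 3 * j) ht subset_union_left ?_ ?_
              · have := card_union_le (e x) A
                omega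
              · rw [disjoint_left]
                intro r hr hr'
                simp only [mem_sdiff, mem_union] at hr
                have : r ∈ A ∩ R x := mem_inter.mpr ⟨by tauto, hr'⟩
                rw [h2] at this
                exact hr.2 (mem_inter.mp this).1
            have : (2 : ℝ) / t = 1 / t + 1 / t := by ring
            linarith
          · intro z hz
            have hW := hWW x
            have z1 : z ∈ agree (v x) y := hc3 (sub_anti (by
              intro r; simp only [mem_union]; have := @hW r; tauto) hz)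
            have z2 := h5 z (sub_anti (by
              intro r; simp only [mem_union]; have := @hW r; tauto) hz)
            simp only [agree, agreeL, mem_filter, mem_univ, true_and] at z1 ⊢
            exact ⟨z1, z2⟩
        have hsub : insert (e x ∩ R x) (Rec Λ x) ⊆ Rec Λ' x :=
          insert_subset hin (hRecmono _ _ x subset_union_left)
        have := card_le_card hsub
        rwa [card_insert_of_notMem hnot] at this
      have hsum : Φ Λ + ∑ x ∈ Acc, μ x ≤ Φ Λ' := by
        have e1 : ∑ x ∈ Acc, μ x = ∑ x, μ x * (if x ∈ Acc then 1 else 0) := by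
          simp only [mul_ite, mul_one, mul_zero]
          rw [← sum_filter]
          congr 1
          ext x; simp
        rw [e1, hΦ]
        simp only
        rw [← sum_add_distrib]
        refine sum_le_sum fun x _ => ?_
        rw [← mul_add]
        refine mul_le_mul_of_nonneg_left ?_ (hμ x)
        split_ifs with h
        · exact_mod_cast hnew x h
        · have := card_le_card (hRecmono _ _ x (subset_union_left : Λ ⊆ Λ'))
          rw [add_zero]
          exact_mod_cast this
      have : γ ≤ ∑ x ∈ Acc, μ x := by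
        convert hacc using 3
      linarith
  have hind : ∀ n : ℕ, ∃ Λ : Finset (Finset Ω × Q), Λ.card * 2 ^ c ≤ n * 2 ^ Fintype.card Ω ∧
      (Good Λ ∨ n * γ ≤ Φ Λ) := by
    intro n
    induction n with
    | zero =>
      refine ⟨∅, by simp, Or.inr ?_⟩
      simp only [Nat.cast_zero, zero_mul]
      exact sum_nonneg fun x _ => mul_nonneg (hμ x) (by positivity)
    | succ n ih =>
      obtain ⟨Λ, h1, h2⟩ := ih
      by_cases hg : Good Λ
      · exact ⟨Λ, h1.trans (by gcongr; omega), Or.inl hg⟩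
      · obtain ⟨Λ', h3, h4⟩ := step Λ hg
        refine ⟨Λ', by rw [add_mul, one_mul]; omega, Or.inr ?_⟩
        rcases h2 with h2 | h2
        · exact absurd h2 hg
        · push_cast; linarith
  obtain ⟨Λ, h1, h2⟩ := hind ρ
  rcases h2 with h2 | h2
  · exact ⟨Λ, h1, h2⟩
  · exact absurd (h2.trans (hΦle Λ)) (not_le.mpr hρ)

end Vale.Agent.P126
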