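import Vale.Agent.P126.Defs
import Vale.Agent.P126.Core

open Finset
open scoped Pointwise

namespace Vale.Agent.P126

variable {n : ℕ}

lemma cube_convex : Convex ℝ (cube n) := by
  intro x hx y hy a b ha hb hab i
  have h1 := hx i
  have h2 := hy i
  simp only [PiLp.add_apply, PiLp.smul_apply, smul_eq_mul]
  rw [abs_le] at h1 h2 ⊢
  constructor <;> nlinarith [h1.1, h1.2, h2.1, h2.2]

lemma cube_neg : cube n = -cube n := by
  ext x
  simp [cube]

lemma cube_compact : IsCompact (cube n) := by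
  refine Metric.isCompact_of_isClosed_isBounded ?_ ?_
  · have : cube n = ⋂ i, {w : EuclideanSpace ℝ (Fin n) | |w i| ≤ 1} := by
      ext w; simp [cube]
    rw [this]
    exact isClosed_iInter fun i => isClosed_le (by fun_prop) continuous_const
  · rw [isBounded_iff_forall_norm_le]
    refine ⟨Real.sqrt n, fun w hw => ?_⟩
    rw [EuclideanSpace.norm_eq]
    refine Real.sqrt_le_sqrt ?_
    calc ∑ i, ‖w i‖ ^ 2 ≤ ∑ _i : Fin n, (1 : ℝ) := by
          refine sum_le_sum fun i _ => ?_
          have := hw i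
          rw [Real.norm_eq_abs]
          nlinarith [abs_nonneg (w i)]
      _ = n := by simp

lemma cube_mem_nhds : cube n ∈ nhds (0 : EuclideanSpace ℝ (Fin n)) := by
  refine Filter.mem_of_superset (Metric.closedBall_mem_nhds 0 one_pos) ?_
  intro w hw i
  rw [mem_closedBall_zero_iff] at hw
  exact (PiLp.norm_apply_le w i).trans hw

lemma cube_body : IsSymmBody (cube n) :=
  ⟨cube_compact, cube_convex, ⟨0, mem_interior_iff_mem_nhds.mpr cube_mem_nhds⟩, cube_neg⟩

lemma polar_cube {μ : EuclideanSpace ℝ (Fin n)} (h : μ ∈ polarSet (cube n)) :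
    ∑ i, |μ i| ≤ 1 := by
  have := h (WithLp.toLp 2 fun i => if 0 ≤ μ i then (1 : ℝ) else -1) (by
    intro i
    simp only
    split_ifs <;> simp)
  refine le_trans (le_of_eq (sum_congr rfl fun i _ => ?_)) this
  simp only
  split_ifs with h0
  · rw [abs_of_nonneg h0, one_mul]
  · rw [abs_of_neg (not_le.mp h0)]; ring

lemma exists_cover {A B : Set (EuclideanSpace ℝ (Fin n))} (hA : IsCompact A)
    (hB : B ∈ nhds (0 : EuclideanSpace ℝ (Fin n))) :
    ∃ S : Finset (EuclideanSpace ℝ (Fin n)), S.card = coverNum A B ∧ A ⊆ ⋃ x ∈ S, x +ᵥ B := by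
  obtain ⟨t, -, ht⟩ := hA.elim_nhds_subcover (fun x => x +ᵥ B) (fun x _ => by
    simpa using vadd_mem_nhds_vadd x hB)
  exact Nat.sInf_mem (s := {m : ℕ | ∃ S : Finset (EuclideanSpace ℝ (Fin n)),
    S.card = m ∧ A ⊆ ⋃ x ∈ S, x +ᵥ B}) ⟨t.card, t, rfl, ht⟩

lemma coverNum_of_key {A B : Set (EuclideanSpace ℝ (Fin n))} {K : Type} [Fintype K]
    (key : EuclideanSpace ℝ (Fin n) → K) (hA : A.Nonempty)
    (h : ∀ μ ∈ A, ∀ μ' ∈ A, key μ = key μ' → μ - μ' ∈ B) :
    1 ≤ coverNum A B ∧ coverNum A B ≤ Fintype.card K := by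
  classical
  have hex : ∀ k : K, ∃ z : EuclideanSpace ℝ (Fin n), (∃ μ ∈ A, key μ = k) →
      z ∈ A ∧ key z = k := by
    intro k
    by_cases hk : ∃ μ ∈ A, key μ = k
    · obtain ⟨μ, hμ⟩ := hk
      exact ⟨μ, fun _ => hμ⟩
    · exact ⟨0, fun h => absurd h hk⟩
  choose z hz using hex
  have hcov : A ⊆ ⋃ x ∈ univ.image z, x +ᵥ B := by
    intro μ hμ
    obtain ⟨h1, h2⟩ := hz (key μ) ⟨μ, hμ, rfl⟩
    simp only [Set.mem_iUnion]
    refine ⟨z (key μ), mem_image_of_mem _ (mem_univ _), μ - z (key μ), h μ hμ _ h1 h2.symm, ?_⟩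
    simp
  have hne : {m : ℕ | ∃ S : Finset (EuclideanSpace ℝ (Fin n)),
      S.card = m ∧ A ⊆ ⋃ x ∈ S, x +ᵥ B}.Nonempty := ⟨_, univ.image z, rfl, hcov⟩
  constructor
  · obtain ⟨S, h1, h2⟩ := Nat.sInf_mem hne
    unfold coverNum
    rw [← h1, Nat.one_le_iff_ne_zero, Ne, card_eq_zero]
    rintro rfl
    obtain ⟨μ, hμ⟩ := hA
    simpa using h2 hμ
  · have h1 : coverNum A B ≤ (univ.image z).card := Nat.sInf_le ⟨univ.image z, rfl, hcov⟩
    exact h1.trans (card_image_le.trans (by simp))

theorem counterexample (a b : ℝ) (ha : 1 ≤ a) (hb : 1 ≤ b) :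
    ∃ n : ℕ, 1 ≤ n ∧ ∃ K : Set (EuclideanSpace ℝ (Fin n)), IsSymmBody K ∧
      1 ≤ coverNum (polarSet (cube n)) (a⁻¹ • polarSet K) ∧
      b * Real.log (coverNum (polarSet (cube n)) (a⁻¹ • polarSet K)) <
        Real.log (coverNum K (cube n)) := by
  classical
  have ha0 : 0 < a := by linarith
  set L := ⌈30 * a⌉₊ with hLdef
  have hLa : 30 * a ≤ L := Nat.le_ceil _
  have hL' : (0 : ℝ) < L := by linarith
  have hL : 1 ≤ L := by exact_mod_cast hL'
  set b' := ⌈b⌉₊ with hb'def
  have hbb : b ≤ b' := Nat.le_ceil _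
  obtain ⟨X, Y, K, _, _, _, _, A, key, β, h1, h2, h3⟩ := core L b' hL
  set e := Fintype.equivFin X with he
  refine ⟨Fintype.card X, Fintype.card_pos, ?_⟩
  set col : Y → EuclideanSpace ℝ (Fin (Fintype.card X)) :=
    fun y => WithLp.toLp 2 fun k => 3 * A (e.symm k) y with hcol
  set G : Set (EuclideanSpace ℝ (Fin (Fintype.card X))) :=
    insert 0 (Set.range col ∪ -Set.range col) with hG
  have hGfin : G.Finite :=
    ((Set.finite_range col).union (Set.finite_range col).neg).insert _
  have hGneg : -G = G := by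
    simp only [hG, Set.neg_insert, neg_zero, Set.union_neg, neg_neg, Set.union_comm]
  set r : ℝ := 1 / (4 * a) with hr
  have hr0 : 0 < r := by positivity
  set Kb := convexHull ℝ G + r • cube (Fintype.card X) with hKb
  have hzero : (0 : EuclideanSpace ℝ (Fin (Fintype.card X))) ∈ cube (Fintype.card X) := by
    intro i; simp
  have hKcompact : IsCompact Kb := (hGfin.isCompact_convexHull ℝ).add (cube_compact.smul r)
  have hbody : IsSymmBody Kb := by
    refine ⟨hKcompact, (convex_convexHull ℝ G).add (cube_convex.smul r), ⟨0, ?_⟩, ?_⟩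
    · rw [mem_interior_iff_mem_nhds]
      have : r • cube (Fintype.card X) ∈
          nhds (0 : EuclideanSpace ℝ (Fin (Fintype.card X))) := by
        have := (smul_mem_nhds_smul_iff₀ hr0.ne').mpr (cube_mem_nhds (n := Fintype.card X))
        rwa [smul_zero] at this
      refine Filter.mem_of_superset this fun w hw => ?_
      exact ⟨0, subset_convexHull ℝ G (Set.mem_insert _ _), w, hw, zero_add w⟩
    · rw [hKb, neg_add, ← convexHull_neg, hGneg, ← Set.smul_set_neg, ← cube_neg]
  have hdual : 1 ≤ coverNum (polarSet (cube (Fintype.card X))) (a⁻¹ • polarSet Kb) ∧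
      coverNum (polarSet (cube (Fintype.card X))) (a⁻¹ • polarSet Kb) ≤ Fintype.card K := by
    refine coverNum_of_key (fun μ => key (fun x => μ (e x))) ⟨0, fun x _ => by simp⟩ ?_
    intro μ hμ μ' hμ' hkey
    have s1 := polar_cube hμ
    have s2 := polar_cube hμ'
    have s3 := h2 _ _ (by rw [← e.sum_comp (fun k => |μ k|)] at s1; exact s1)
      (by rw [← e.sum_comp (fun k => |μ' k|)] at s2; exact s2) hkey
    refine ⟨a • (μ - μ'), ?_, by simp [smul_smul, inv_mul_cancel₀ ha0.ne']⟩
    rintro _ ⟨g, hg, _, ⟨u, hu, rfl⟩, rfl⟩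
    have t1 : ∑ i, g i * (a • (μ - μ')) i ≤ 1 / 2 := by
      have hlin : IsLinearMap ℝ (fun g : EuclideanSpace ℝ (Fin (Fintype.card X)) =>
          ∑ i, g i * (a • (μ - μ')) i) := by
        constructor
        · intro x y; simp only [PiLp.add_apply, add_mul, sum_add_distrib]
        · intro c x; simp only [PiLp.smul_apply, smul_eq_mul, mul_sum, mul_assoc]
      have hcolb : ∀ y, |∑ i, col y i * (a • (μ - μ')) i| ≤ 1 / 2 := by
        intro y
        have e1 : ∑ i, col y i * (a • (μ - μ')) i =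
            3 * a * ∑ x, (μ (e x) - μ' (e x)) * A x y := by
          rw [mul_sum, ← e.sum_comp]
          refine sum_congr rfl fun x _ => ?_
          simp only [hcol, PiLp.smul_apply, PiLp.sub_apply, smul_eq_mul, Equiv.symm_apply_apply]
          ring
        rw [e1, abs_mul, abs_of_pos (by positivity : 0 < 3 * a)]
        calc 3 * a * |∑ x, (μ (e x) - μ' (e x)) * A x y| ≤ 3 * a * (5 / L) := by
              gcongr; exact s3 y
          _ ≤ 1 / 2 := by
              rw [← mul_div_assoc, div_le_div_iff₀ hL' (by norm_num)]; linarith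
      refine convexHull_min (t := {g | ∑ i, g i * (a • (μ - μ')) i ≤ 1 / 2}) ?_
        (convex_halfSpace_le hlin _) hg
      rintro w (rfl | ⟨y, rfl⟩ | hw)
      · simp
      · exact (le_abs_self _).trans (hcolb y)
      · obtain ⟨y, hy⟩ := hw
        have : w = -col y := by rw [hy]; simp
        rw [this]
        simp only [Set.mem_setOf_eq, PiLp.neg_apply, neg_mul, sum_neg_distrib]
        exact (neg_le_abs _).trans (hcolb y)
    have t2 : ∑ i, (r • u) i * (a • (μ - μ')) i ≤ 1 / 2 := by
      calc ∑ i, (r • u) i * (a • (μ - μ')) i ≤ ∑ i, 1 / 4 * (|μ i| + |μ' i|) := by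
            refine sum_le_sum fun i _ => ?_
            simp only [PiLp.smul_apply, PiLp.sub_apply, smul_eq_mul]
            have e1 : r * u i * (a * (μ i - μ' i)) = 1 / 4 * (u i * (μ i - μ' i)) := by
              rw [hr]; field_simp
            rw [e1]
            gcongr
            calc u i * (μ i - μ' i) ≤ |u i * (μ i - μ' i)| := le_abs_self _
              _ = |u i| * |μ i - μ' i| := abs_mul _ _
              _ ≤ 1 * (|μ i| + |μ' i|) := by
                  gcongr
                  · exact hu i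
                  · exact abs_sub _ _
              _ = _ := one_mul _
        _ = 1 / 4 * (∑ i, |μ i| + ∑ i, |μ' i|) := by rw [← mul_sum, sum_add_distrib]
        _ ≤ 1 / 2 := by linarith
    simp only [PiLp.add_apply, add_mul, sum_add_distrib]
    linarith
  have hprimal : Fintype.card Y ≤ coverNum Kb (cube (Fintype.card X)) * β := by
    obtain ⟨S, hS1, hS2⟩ := exists_cover hKcompact (cube_mem_nhds (n := Fintype.card X))
    have hsub : (univ : Finset Y) ⊆ S.biUnion (fun x =>
        univ.filter (fun y => col y ∈ x +ᵥ cube (Fintype.card X))) := by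
      intro y _
      have hy : col y ∈ Kb := ⟨col y, subset_convexHull ℝ G
        (Set.mem_insert_of_mem _ (Or.inl ⟨y, rfl⟩)), 0, ⟨0, hzero, smul_zero r⟩, add_zero _⟩
      have := hS2 hy
      simp only [Set.mem_iUnion] at this
      obtain ⟨x, hx1, hx2⟩ := this
      exact mem_biUnion.mpr ⟨x, hx1, mem_filter.mpr ⟨mem_univ _, hx2⟩⟩
    rw [← hS1]
    refine (card_le_card hsub).trans (card_biUnion_le_card_mul _ _ _ fun x _ => h1 _ ?_)
    rintro y hy y' hy' x0 ⟨p1, p2⟩
    obtain ⟨u, hu, hu'⟩ := (mem_filter.mp hy).2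
    obtain ⟨u', hv, hv'⟩ := (mem_filter.mp hy').2
    have q1 := congrArg (fun w => w (e x0)) hu'
    have q2 := congrArg (fun w => w (e x0)) hv'
    simp only [hcol, vadd_eq_add, PiLp.add_apply, Equiv.symm_apply_apply, p1, p2] at q1 q2
    have q3 := abs_le.mp (hu (e x0))
    have q4 := abs_le.mp (hv (e x0))
    linarith [q3.1, q3.2, q4.1, q4.2]
  refine ⟨Kb, hbody, hdual.1, ?_⟩
  have hlt : Fintype.card K ^ b' < coverNum Kb (cube (Fintype.card X)) := by
    by_contra hc
    rw [not_lt] at hc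
    have : coverNum Kb (cube (Fintype.card X)) * β ≤ Fintype.card K ^ b' * β := by gcongr
    rw [mul_comm _ β, mul_comm _ β] at this
    rw [mul_comm _ β] at hprimal
    omega
  have hK1 : (1 : ℝ) ≤ coverNum (polarSet (cube (Fintype.card X))) (a⁻¹ • polarSet Kb) := by
    exact_mod_cast hdual.1
  have hK2 : (coverNum (polarSet (cube (Fintype.card X))) (a⁻¹ • polarSet Kb) : ℝ) ≤
      Fintype.card K := by exact_mod_cast hdual.2
  calc b * Real.log (coverNum (polarSet (cube (Fintype.card X))) (a⁻¹ • polarSet Kb))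
      ≤ b' * Real.log (Fintype.card K) := by
        gcongr
    _ = Real.log ((Fintype.card K ^ b' : ℕ) : ℝ) := by push_cast; rw [Real.log_pow]
    _ < _ := by
        refine Real.log_lt_log ?_ (by exact_mod_cast hlt)
        push_cast
        exact pow_pos (by linarith) _

end Vale.Agent.P126
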